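import Vale.Agent.P088.H72.X.Defs2
import Vale.Agent.P088.H833.D.Defs

/-!
# P088, semi-global uniqueness (Theorem D) on every smooth bounded domain, NO condition at the
boundary: definitions and rows

`Dom`, `Om`, `SDom`, `dr`, `gr`, `dl`, `Jm` are those of `H72/B`; `SE` of `H639/En`; `sc`, `bal` of
`H442/Defs3`; `RigD` of `H833/D/Defs`.
-/

open MeasureTheory Set Filter Topology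
open scoped ContDiff Matrix

noncomputable section

namespace Vale.Agent.P088.LR.E

open Vale.Agent.P088.LR Vale.Agent.P088.LR.B Vale.Agent.P088.LR.CF Vale.Agent.P088.H639

variable {n : ℕ}

/-- One bound for every order: derivatives of order `l` are at most `B l`, `l ≤ K`. -/
def Cb (K : ℕ) (B : ℕ → ℝ) (f : V n → ℝ) : Prop :=
  ∀ l ≤ K, ∀ x, ‖iteratedFDeriv ℝ l f x‖ ≤ B l

/-- `s = ψ t`, derivatives of order `l ≤ k` of `ψ`, `t` bounded by `B l`, `1 / ψ ≤ B 0`, and `t` is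
`ε`-near `1` (no derivatives). -/
structure Nc (k : ℕ) (B : ℕ → ℝ) (ε : ℝ) (s : MF n) (ψ : V n → ℝ) (t : MF n) : Prop where
  pψ : SmP ψ
  st : SmM t
  sy : ∀ x, (t x).IsSymm
  eq : ∀ x, s x = ψ x • t x
  bψ : Cb k B ψ
  iψ : ∀ x, (ψ x)⁻¹ ≤ B 0
  bt : ∀ i j, Cb k B (fun x => t x i j)
  nt : ∀ i j x, |t x i j - dl i j| ≤ ε

/-- Formal harmonic coordinates `x + w x` of `s` at the boundary, with the conormal data of the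
identity for `σ · 1`. -/
structure Hc (ρ σ : V n → ℝ) (s : MF n) (w : V n → V n) : Prop where
  sw : ContDiff ℝ ∞ w
  z : ∀ x, ρ x = 0 → w x = 0
  off : ∀ x ∉ core n, w x = 0
  fl : ∀ a x, ρ x = 0 → gr s (fun y => y a + w y a) ρ x = σ x * pd a ρ x
  eq : ∀ a (m : ℕ), ∃ r > 0, ∃ E : V n → ℝ, ContDiff ℝ ∞ E ∧ ∀ x, |ρ x| < r →
    dr s (fun y => y a + w y a) x = ρ x ^ m * E x

/-- (E_CZ) the conformal factor at the boundary; from `BX.RowCON` for `σ` and for `ψ`, `j = 0`. -/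
def RowCZ : Prop := ∀ {n : ℕ}, 3 ≤ n → ∀ ρ : V n → ℝ, Dom ρ → ∀ σ : V n → ℝ, SmP σ →
  ∀ B : ℕ → ℝ, ∃ C ε₀ : ℝ, 0 < C ∧ 0 < ε₀ ∧ ∀ ε, 0 ≤ ε → ε ≤ ε₀ → ∀ (s : MF n) (ψ : V n → ℝ)
  (t : MF n), Nc 0 B ε s ψ t → SE (Om ρ) (sc σ) s → ∀ x, ρ x = 0 → |ψ x - σ x| ≤ C * ε

/-- (E_REC) formal series of all orders, bounded coefficients. -/
def RowREC : Prop := ∀ {n : ℕ} (ρ : V n → ℝ), Dom ρ → ∀ (k : ℕ) (B : ℕ → ℝ) (μ : ℝ), 0 < μ →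
  ∃ (K : ℕ) (B' : ℝ), ∀ s : MF n, SmM s → (∀ x, (s x).IsSymm) → (∀ i j, Cb K B (fun x => s x i j)) →
  (∀ x, ∀ v : V n, μ * ∑ i, v i ^ 2 ≤ ∑ i, ∑ j, s x i j * v i * v j) →
  ∀ f g : V n → ℝ, ContDiff ℝ ∞ f → ContDiff ℝ ∞ g → Cb K B f → Cb K B g →
  ∃ c : ℕ → V n → ℝ, (∀ i, ContDiff ℝ ∞ (c i)) ∧ (∀ i ≤ k, Cl k B' (c i)) ∧ (∀ x, c 0 x = 0) ∧
    (∀ x, ρ x = 0 → gr s ρ ρ x * c 1 x = f x) ∧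
    ∀ M : ℕ, ∃ r > 0, ∃ E, ContDiff ℝ ∞ E ∧ ∀ x, |ρ x| < r →
      g x + dr s (fun y => ∑ i ∈ Finset.range (M + 2), ρ y ^ i * c i y) x = ρ x ^ M * E x

/-- (E_BOR) formal harmonic coordinates, `C^1`-near the identity (thin collar), for `σ · 1` itself
and for `s`; from REC. The number `ε₀` bounds `s - σ · 1` on `{ρ = 0}` only. -/
def RowBOR : Prop := ∀ {n : ℕ} (ρ : V n → ℝ), Dom ρ → ∀ σ : V n → ℝ, SmP σ →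
  (∀ x ∉ core n, σ x = 1) → ∀ η : ℝ, 0 < η → (∃ w : V n → V n, Hc ρ σ (sc σ) w ∧ Cl 1 η w) ∧
  ∀ (k : ℕ) (B : ℕ → ℝ), ∃ (K : ℕ) (ε₀ B' : ℝ), 0 < ε₀ ∧
  ∀ (s : MF n) (ψ : V n → ℝ) (t : MF n), Nc K B ε₀ s ψ t →
  (∀ x, ρ x = 0 → ∀ i j, |s x i j - sc σ x i j| ≤ ε₀) →
  ∃ w : V n → V n, Hc ρ σ s w ∧ Cl 1 η w ∧ Cl k B' w

/-- (E_PHI) `Φ = (id + w₁)⁻¹ ∘ (id + w₂)`: `C^1`-near the identity, bounded in `C^k`. -/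
def RowPHI : Prop := ∀ (n k : ℕ), ∃ C η₀ : ℝ, 0 < C ∧ 0 < η₀ ∧ ∀ B : ℝ, ∃ B' : ℝ,
  ∀ (Ω : Set (V n)) (w₁ w₂ : V n → V n), ContDiff ℝ ∞ w₁ → ContDiff ℝ ∞ w₂ →
  (∀ x ∉ core n, w₁ x = 0) → (∀ x ∉ core n, w₂ x = 0) → (∀ x ∉ Ω, w₂ x = w₁ x) →
  ∀ η, 0 ≤ η → η ≤ η₀ → Cl 1 η w₁ → Cl 1 η w₂ → Cl (k + 1) B w₁ → Cl (k + 1) B w₂ →
  ∃ w K, Dif Ω w K ∧ Cl 1 (C * η) w ∧ Cl k B' w ∧
    ∀ x, (x + w x) + w₁ (x + w x) = x + w₂ x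

/-- (E_NRM) the push-forward: `ψ' = ψ ∘ K`, `t' = det⁻¹ J t Jᵀ ∘ K`. -/
def RowNRM : Prop := ∀ (n k : ℕ), ∃ C η₀ : ℝ, 0 < C ∧ 0 < η₀ ∧ ∀ B : ℝ, ∃ B' : ℝ,
  ∀ (s : MF n) (ψ : V n → ℝ) (t : MF n) (w K : V n → V n) (ε η : ℝ), 0 ≤ ε → ε ≤ 1 → 0 ≤ η →
  η ≤ η₀ → Nc k (fun _ => B) ε s ψ t → Dif univ w K → Cl 1 η w → Cl (k + 1) B w →
  Nc k (fun _ => B') (C * (ε + η)) (psh s w K) (fun y => ψ (K y)) (psh t w K)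

/-- (E_BD) the boundary step, `|t - σ · 1| ≤ a₀` on the boundary only, `t ≥ μ`. -/
def RowBD : Prop := ∀ {n : ℕ}, 3 ≤ n → ∀ μ : ℝ, 0 < μ → ∃ a₀ > 0, ∀ (ρ : V n → ℝ), Dom ρ →
  ∀ σ : V n → ℝ, ContDiff ℝ ∞ σ → (∀ x, μ ≤ σ x) → ∀ t : MF n, SmM t → (∀ x, (t x).IsSymm) →
  (∀ x, ∀ v : V n, μ * ∑ i, v i ^ 2 ≤ ∑ i, ∑ j, t x i j * v i * v j) → SE (Om ρ) (sc σ) t →
  (∀ x, ρ x = 0 → ∀ i j, |t x i j - sc σ x i j| ≤ a₀) →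
  ∀ (m : ℕ) (b : Fin n → Fin n → V n → ℝ),
  (∀ i j, ContDiff ℝ ∞ (b i j)) → (∀ i j x, b i j x = b j i x) →
  (∀ x i j, t x i j - sc σ x i j = ρ x ^ m * b i j x) →
  (∀ x, ρ x = 0 → ∀ i, ∑ j, b i j x * pd j ρ x = 0) → ∀ x, ρ x = 0 → ∀ i j, b i j x = 0

/-- (E_INF) contact of infinite order; from HAD, BD, TOPO. -/
def RowINF : Prop := ∀ {n : ℕ}, 3 ≤ n → ∀ μ : ℝ, 0 < μ → ∃ a₀ > 0, ∀ (ρ : V n → ℝ), Dom ρ →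
  ∀ σ : V n → ℝ, ContDiff ℝ ∞ σ → (∀ x, μ ≤ σ x) → ∀ t : MF n, SmM t → (∀ x, (t x).IsSymm) →
  (∀ x, ∀ v : V n, μ * ∑ i, v i ^ 2 ≤ ∑ i, ∑ j, t x i j * v i * v j) → SE (Om ρ) (sc σ) t →
  (∀ x, ρ x = 0 → ∀ i j, |t x i j - sc σ x i j| ≤ a₀) →
  ∀ w₁ : V n → V n, ContDiff ℝ ∞ w₁ → (∀ x, ρ x = 0 → (jm w₁ x).det ≠ 0) →
  (∀ a x, ρ x = 0 → gr t (fun y => y a + w₁ y a) ρ x = gr (sc σ) (fun y => y a + w₁ y a) ρ x) →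
  (∀ a (m : ℕ), ∃ r > 0, ∃ E : V n → ℝ, ContDiff ℝ ∞ E ∧ ∀ x, |ρ x| < r →
    dr t (fun y => y a + w₁ y a) x = ρ x ^ m * E x) →
  (∀ a (m : ℕ), ∃ r > 0, ∃ E : V n → ℝ, ContDiff ℝ ∞ E ∧ ∀ x, |ρ x| < r →
    dr (sc σ) (fun y => y a + w₁ y a) x = ρ x ^ m * E x) →
  ∀ m : ℕ, ∃ b : Fin n → Fin n → V n → ℝ, (∀ i j, ContDiff ℝ ∞ (b i j)) ∧
    ∀ x i j, t x i j - sc σ x i j = ρ x ^ m * b i j x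

/-- (E_DEC) a tensor which is near a multiple of `1` at every point, in the form of `RigD`:
`φ₂² = (det s)^(1/n)`. -/
def RowDEC : Prop := ∀ (n k : ℕ), 1 ≤ n → ∀ B : ℝ, 1 ≤ B → ∃ B' C ε₀ : ℝ, 0 < C ∧ 0 < ε₀ ∧
  ∀ (s : MF n) (ε : ℝ), 0 ≤ ε → ε ≤ ε₀ → SmM s → (∀ x, (s x).IsSymm) →
  (∀ i j, Cl k B (fun x => s x i j)) →
  (∀ x, ∃ y : ℝ, B⁻¹ ≤ y ∧ ∀ i j, |s x i j - y * dl i j| ≤ ε) →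
  ∃ (φ₂ : V n → ℝ) (t₂ : MF n), SmP φ₂ ∧ SmM t₂ ∧ (∀ x, (t₂ x).IsSymm) ∧
    (∀ x, s x = φ₂ x ^ 2 • t₂ x) ∧ Cl k B' (cx φ₂) ∧ (∀ x, (φ₂ x)⁻¹ ≤ B') ∧
    (∀ i j, Cl k B' (ent t₂ i j)) ∧ (∀ i j x, ‖ent t₂ i j x‖ ≤ C * ε) ∧
    ∀ x, ∀ y > 0, s x = (y ^ 2) • (1 : Matrix (Fin n) (Fin n) ℝ) → φ₂ x = y ∧ t₂ x = 1

/-- (E_FIN) semi-global rigidity of an arbitrary `σ · 1` on a smooth domain in the ball, no condition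
at the boundary, tensor form; from all rows above and `CD.RowTOPD`. -/
def RowFIN : Prop := ∀ n : ℕ, 3 ≤ n → ∀ ρ : V n → ℝ, Dom ρ →
  (∀ x ∉ bal n, ρ x = -1) → ∀ σ : V n → ℝ, SmP σ → (∀ x ∉ bal n, σ x = 1) → ∀ B : ℕ → ℝ,
  ∃ k : ℕ, ∃ ε > 0, ∀ (s : MF n) (ψ : V n → ℝ) (t : MF n), Nc k B ε s ψ t → SE (Om ρ) (sc σ) s →
  ∃ Φ Ψ : V n → V n, ContDiff ℝ ∞ Φ ∧ ContDiff ℝ ∞ Ψ ∧
    (∀ x, Ψ (Φ x) = x) ∧ (∀ y, Φ (Ψ y) = y) ∧ (∀ x, ρ x = 0 → Φ x = x) ∧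
    (∀ x, 0 < ρ (Φ x) ↔ 0 < ρ x) ∧ (∀ x, 0 < (Jm Φ x).det) ∧
    ∀ x, 0 ≤ ρ x → (Jm Φ x).det⁻¹ • (Jm Φ x * s x * (Jm Φ x)ᵀ) = sc σ (Φ x)

/-- **Semi-global uniqueness on every smooth bounded domain, no condition at the boundary**: the
derivatives of `g` of order `l` are bounded by `B l`, `det g ≥ 1 / B 0`, and `g` is `C^0`-near the
conformally flat metric `(det g)^(1/n) e`; base any `c e`. -/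
def FinD : Prop := ∀ n : ℕ, 3 ≤ n → ∀ ρ : V n → ℝ, SDom ρ → ∀ c : V n → ℝ, SmP c →
  ∀ B : ℕ → ℝ, ∃ k : ℕ, ∃ ε > 0, ∀ g : MF n, SmM g → (∀ x, (g x).PosDef) →
  (∀ i j, Cb k B (fun x => g x i j)) → (∀ x, (B 0)⁻¹ ≤ (g x).det) →
  (∀ i j x, |g x i j - sc (fun x => (g x).det ^ (1 / (n : ℝ))) x i j| ≤ ε) →
  SE (Om ρ) (sg (sc c)) (sg g) → ∃ Φ Ψ : V n → V n, ContDiff ℝ ∞ Φ ∧ ContDiff ℝ ∞ Ψ ∧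
    (∀ x, Ψ (Φ x) = x) ∧ (∀ y, Φ (Ψ y) = y) ∧ (∀ x, ρ x = 0 → Φ x = x) ∧
    (∀ x, 0 < ρ (Φ x) ↔ 0 < ρ x) ∧ (∀ x, 0 < (Jm Φ x).det) ∧
    ∀ x, 0 ≤ ρ x → g x = c (Φ x) • ((Jm Φ x)ᵀ * Jm Φ x)

/-- (E_SC) scaling, cut-off of `c`, `t = (det g)^(1/n) g⁻¹`, `ψ = (det g)^((n-2)/(2n))`. -/
def RowSC : Prop := RowFIN → FinD

end Vale.Agent.P088.LR.E
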